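import Vale.Agent.P074.Example
import Vale.Agent.P074.Third.Final

open MeasureTheory
open scoped ENNReal NNReal

theorem Vale.Agent.Results.P074.A00_ExactOneThird.result :
    ∀ d : ℕ, 2 ≤ d →
      Vale.Agent.P074.Admissible d (1 / 3) ∧
        ∀ α : ℝ, Vale.Agent.P074.Admissible d α → α ≤ 1 / 3 :=
  fun d hd => ⟨Vale.Agent.P074.admissible_third (by omega),
    fun α h => Vale.Agent.P074.admissible_le d hd α h⟩
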