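import Vale.Agent.P074.Example
import Vale.Agent.P074.Third.Final

open MeasureTheory
open scoped ENNReal NNReal

theorem Vale.Agent.Results.P074.A01_SharpThirdUnfolded.result :
    ∀ d : ℕ, 2 ≤ d →
      (∀ K : Set (EuclideanSpace ℝ (Fin d)), IsCompact K → Convex ℝ K → (interior K).Nonempty →
        ∀ Y : Set (EuclideanSpace ℝ (Fin d)), IsCompact Y → Y.Nonempty →
        ∃ C : ℝ≥0, ∀ μ ν : Measure (EuclideanSpace ℝ (Fin d)),
          IsProbabilityMeasure μ → IsProbabilityMeasure ν → μ Y = 1 → ν Y = 1 →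
          ∀ T S : EuclideanSpace ℝ (Fin d) → EuclideanSpace ℝ (Fin d),
            Vale.Agent.P074.IsOTMap (Vale.Agent.P074.unif K) μ T →
            Vale.Agent.P074.IsOTMap (Vale.Agent.P074.unif K) ν S →
            eLpNorm (fun x => T x - S x) 2 (Vale.Agent.P074.unif K)
              ≤ (C : ℝ≥0∞) * Vale.Agent.P074.W2 μ ν ^ (1 / 3 : ℝ)) ∧
      (∀ α : ℝ, 1 / 3 < α → α ≤ 1 →
        ∃ K : Set (EuclideanSpace ℝ (Fin d)), IsCompact K ∧ Convex ℝ K ∧ (interior K).Nonempty ∧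
        ∃ Y : Set (EuclideanSpace ℝ (Fin d)), IsCompact Y ∧ Y.Nonempty ∧
        ∀ C : ℝ≥0, ∃ μ ν : Measure (EuclideanSpace ℝ (Fin d)),
          IsProbabilityMeasure μ ∧ IsProbabilityMeasure ν ∧ μ Y = 1 ∧ ν Y = 1 ∧
          ∃ T S : EuclideanSpace ℝ (Fin d) → EuclideanSpace ℝ (Fin d),
            Vale.Agent.P074.IsOTMap (Vale.Agent.P074.unif K) μ T ∧
            Vale.Agent.P074.IsOTMap (Vale.Agent.P074.unif K) ν S ∧
            (C : ℝ≥0∞) * Vale.Agent.P074.W2 μ ν ^ α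
              < eLpNorm (fun x => T x - S x) 2 (Vale.Agent.P074.unif K)) := by
  intro d hd
  refine ⟨(Vale.Agent.P074.admissible_third (d := d) (by omega)).2.2, ?_⟩
  intro α h1 h2
  by_contra hcon
  have hadm : Vale.Agent.P074.Admissible d α := by
    refine ⟨by linarith, h2, ?_⟩
    intro K hK hKc hKi Y hY hYn
    by_contra hC
    apply hcon
    refine ⟨K, hK, hKc, hKi, Y, hY, hYn, ?_⟩
    intro C
    by_contra hno
    apply hC
    refine ⟨C, ?_⟩
    intro μ ν hμ hν hμY hνY T S hT hS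
    by_contra hlt
    apply hno
    exact ⟨μ, ν, hμ, hν, hμY, hνY, T, S, hT, hS, not_le.mp hlt⟩
  have := Vale.Agent.P074.admissible_le d hd α hadm
  linarith
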