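import Vale.Agent.P074.Example
import Vale.Agent.P074.Third.Final

open MeasureTheory
open scoped ENNReal NNReal

/-- For every dimension `d ≥ 2` the supremum of the admissible exponents equals `1 / 3`, the
supremum is attained (`1 / 3` is admissible), and `1 / 2` is not admissible. -/
theorem Vale.Agent.Results.P074.A02_SupremumValue.result :
    ∀ d : ℕ, 2 ≤ d →
      sSup {α : ℝ | Vale.Agent.P074.Admissible d α} = 1 / 3 ∧
        Vale.Agent.P074.Admissible d (1 / 3) ∧ ¬ Vale.Agent.P074.Admissible d (1 / 2) := by
  intro d hd
  have hg : IsGreatest {α : ℝ | Vale.Agent.P074.Admissible d α} (1 / 3) :=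
    ⟨Vale.Agent.P074.admissible_third (by omega),
      fun α h => Vale.Agent.P074.admissible_le d hd α h⟩
  refine ⟨hg.csSup_eq, hg.1, fun h => ?_⟩
  have := Vale.Agent.P074.admissible_le d hd _ h
  norm_num at this
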