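import Vale.Agent.P074.Example

open MeasureTheory
open scoped ENNReal NNReal

theorem Vale.Agent.Results.P074.A1_UpperOneThird.result :
    ∀ d : ℕ, 2 ≤ d → ∀ α : ℝ, Vale.Agent.P074.Admissible d α → α ≤ 1 / 3 :=
  fun d hd α h => Vale.Agent.P074.admissible_le d hd α h
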