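import Vale.Agent.P074.Example

open MeasureTheory Vale.Agent.P074
open scoped ENNReal NNReal

theorem Vale.Agent.Results.P074.A2_UpperStrong.result :
    ∀ d : ℕ, 2 ≤ d → ∀ α : ℝ, 1 / 3 < α →
    ∃ K Y : Set (EuclideanSpace ℝ (Fin d)), IsCompact K ∧ Convex ℝ K ∧ (interior K).Nonempty ∧
      IsCompact Y ∧ Y.Nonempty ∧
      ∀ C : ℝ≥0, ∃ μ ν : Measure (EuclideanSpace ℝ (Fin d)),
        IsProbabilityMeasure μ ∧ IsProbabilityMeasure ν ∧ μ Y = 1 ∧ ν Y = 1 ∧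
        (∃ T, IsOTMap (unif K) μ T) ∧ (∃ S, IsOTMap (unif K) ν S) ∧
        ∀ T S : EuclideanSpace ℝ (Fin d) → EuclideanSpace ℝ (Fin d),
          IsOTMap (unif K) μ T → IsOTMap (unif K) ν S →
          (C : ℝ≥0∞) * W2 μ ν ^ α < eLpNorm (fun x => T x - S x) 2 (unif K) :=
  fun d hd α hα => strong_upper d hd α hα
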