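import Vale.Agent.P074.Quarter

open MeasureTheory
open scoped ENNReal NNReal

theorem Vale.Agent.Results.P074.A3_LowerQuarter.result :
    ∀ d : ℕ, 1 ≤ d → Vale.Agent.P074.Admissible d (1 / 4) :=
  fun _ hd => Vale.Agent.P074.admissible_quarter hd
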