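import Vale.Agent.P074.H91.Final

open Vale.Agent.P074.H91

/-- In every dimension `d ≥ 2`, every admissible stability exponent is at most `1 / 3`. -/
theorem Vale.Agent.Results.P074.UpperBoundOneThird.result :
    ∀ d : ℕ, 2 ≤ d → ∀ α : ℝ, Admissible d α → α ≤ 1 / 3 :=
  fun d hd α h => admissible_le_third d hd α h
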